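import Vale.Agent.Lib.P045.Greedy

namespace Vale.Agent.Results.P045.BoundedDegree

open Finset Vale.Agent.Lib.P045

variable {V : Type*} [DecidableEq V]

omit [DecidableEq V] in
theorem coverNumber_le (H : Finset (Finset V)) (C : Finset V) (hC : IsCover H C) :
    coverNumber H ≤ C.card :=
  Nat.sInf_le ⟨C, hC, rfl⟩

omit [DecidableEq V] in
theorem bddAbove_matchings (H : Finset (Finset V)) :
    BddAbove {k | ∃ M, IsMatching H M ∧ M.card = k} := by
  refine ⟨H.card, ?_⟩
  rintro k ⟨M, hM, rfl⟩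
  exact card_le_card hM.1

omit [DecidableEq V] in
theorem le_matchingNumber (H M : Finset (Finset V)) (hM : IsMatching H M) :
    M.card ≤ matchingNumber H :=
  le_csSup (bddAbove_matchings H) ⟨M, hM, rfl⟩

omit [DecidableEq V] in
theorem exists_max_matching (H : Finset (Finset V)) :
    ∃ M, IsMatching H M ∧ M.card = matchingNumber H := by
  have hne : {k | ∃ M, IsMatching H M ∧ M.card = k}.Nonempty :=
    ⟨0, ∅, ⟨empty_subset _, by simp⟩, by simp⟩
  exact Nat.sSup_mem hne (bddAbove_matchings H)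

omit [DecidableEq V] in
theorem exists_min_cover (H : Finset (Finset V)) (C : Finset V) (hC : IsCover H C) :
    ∃ C', IsCover H C' ∧ C'.card = coverNumber H := by
  have hne : {k | ∃ C, IsCover H C ∧ C.card = k}.Nonempty := ⟨C.card, C, hC, rfl⟩
  exact Nat.sInf_mem hne

/-- Maximum degree at most two, uniformity at least four. -/
theorem witness_two (r : ℕ) (hr : 4 ≤ r) (H : Finset (Finset V)) (hunif : ∀ e ∈ H, e.card = r)
    (hdeg : ∀ v, degree H v ≤ 2) :
    ∃ C M, IsCover H C ∧ IsMatching H M ∧ C.card ≤ (r - 1) * M.card := by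
  obtain ⟨A2, F1, hF1, hcov2, hcnt2, hdeg1⟩ := star_packing 1 H.card H le_rfl
  have hne : ∀ e ∈ F1, e.Nonempty := fun e he => by
    rw [← card_pos, hunif e (hF1 he)]; omega
  obtain ⟨A1, hA1, hcov1⟩ := cover_by_choice F1 hne
  have hM1 : IsMatching H F1 := (matching_of_degree_le_one F1 hdeg1).mono hF1
  obtain ⟨M2, hM2, hc2⟩ := greedy_matching (r * 1) H.card H le_rfl (nbr_bound H r 1 hunif hdeg)
  have hC : IsCover H (A2 ∪ A1) := by
    intro e he
    by_cases h : e ∈ F1
    · obtain ⟨v, hv, hve⟩ := hcov1 e h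
      exact ⟨v, mem_union_right _ hv, hve⟩
    · obtain ⟨v, hv, hve⟩ := hcov2 e he h
      exact ⟨v, mem_union_left _ hv, hve⟩
  have hCcard : (A2 ∪ A1).card ≤ A2.card + A1.card := card_union_le _ _
  obtain ⟨s, rfl⟩ : ∃ s, r = s + 4 := ⟨r - 4, by omega⟩
  have key : ∀ M : Finset (Finset V), F1.card ≤ M.card → M2.card ≤ M.card →
      (A2 ∪ A1).card ≤ (s + 4 - 1) * M.card := by
    intro M h1 h2
    have h3 : H.card ≤ (s + 5) * M.card := by
      have e : (s + 4) * 1 + 1 = s + 5 := by ring
      rw [e] at hc2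
      exact le_trans hc2 (Nat.mul_le_mul_left _ h2)
    have h4 : (s + 5) * M.card = s * M.card + 5 * M.card := by ring
    have h5 : (s + 4 - 1) * M.card = s * M.card + 3 * M.card := by
      have : s + 4 - 1 = s + 3 := by omega
      rw [this]; ring
    rw [h5]
    rw [h4] at h3
    generalize s * M.card = p at *
    omega
  rcases le_total F1.card M2.card with h | h
  · exact ⟨A2 ∪ A1, M2, hC, hM2, key M2 h le_rfl⟩
  · exact ⟨A2 ∪ A1, F1, hC, hM1, key F1 le_rfl h⟩

/-- Maximum degree at most three, uniformity at least twelve. -/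
theorem witness_three (r : ℕ) (hr : 12 ≤ r) (H : Finset (Finset V))
    (hunif : ∀ e ∈ H, e.card = r) (hdeg : ∀ v, degree H v ≤ 3) :
    ∃ C M, IsCover H C ∧ IsMatching H M ∧ C.card ≤ (r - 1) * M.card := by
  obtain ⟨A3, F2, hF2, hcov3, hcnt3, hdeg2⟩ := star_packing 2 H.card H le_rfl
  obtain ⟨A2, F1, hF1, hcov2, hcnt2, hdeg1⟩ := star_packing 1 F2.card F2 le_rfl
  have hne : ∀ e ∈ F1, e.Nonempty := fun e he => by
    rw [← card_pos, hunif e (hF2 (hF1 he))]; omega
  obtain ⟨A1, hA1, hcov1⟩ := cover_by_choice F1 hne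
  have hM1 : IsMatching H F1 :=
    (matching_of_degree_le_one F1 hdeg1).mono (hF1.trans hF2)
  obtain ⟨M2, hM2', hc2⟩ := greedy_matching (r * 1) F2.card F2 le_rfl
    (nbr_bound F2 r 1 (fun e he => hunif e (hF2 he)) hdeg2)
  have hM2 : IsMatching H M2 := hM2'.mono hF2
  obtain ⟨M3, hM3, hc3⟩ := greedy_matching (r * 2) H.card H le_rfl (nbr_bound H r 2 hunif hdeg)
  have hC : IsCover H (A3 ∪ A2 ∪ A1) := by
    intro e he
    by_cases h2 : e ∈ F2
    · by_cases h1 : e ∈ F1
      · obtain ⟨v, hv, hve⟩ := hcov1 e h1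
        exact ⟨v, mem_union_right _ hv, hve⟩
      · obtain ⟨v, hv, hve⟩ := hcov2 e h2 h1
        exact ⟨v, mem_union_left _ (mem_union_right _ hv), hve⟩
    · obtain ⟨v, hv, hve⟩ := hcov3 e he h2
      exact ⟨v, mem_union_left _ (mem_union_left _ hv), hve⟩
  have hCcard : (A3 ∪ A2 ∪ A1).card ≤ A3.card + A2.card + A1.card :=
    le_trans (card_union_le _ _) (Nat.add_le_add_right (card_union_le _ _) _)
  obtain ⟨s, rfl⟩ : ∃ s, r = s + 12 := ⟨r - 12, by omega⟩
  have key : ∀ M : Finset (Finset V), F1.card ≤ M.card → M2.card ≤ M.card → M3.card ≤ M.card →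
      (A3 ∪ A2 ∪ A1).card ≤ (s + 12 - 1) * M.card := by
    intro M h1 h2 h3
    have g2 : F2.card ≤ (s + 13) * M.card := by
      have e : (s + 12) * 1 + 1 = s + 13 := by ring
      rw [e] at hc2
      exact le_trans hc2 (Nat.mul_le_mul_left _ h2)
    have g3 : H.card ≤ (2 * s + 25) * M.card := by
      have e : (s + 12) * 2 + 1 = 2 * s + 25 := by ring
      rw [e] at hc3
      exact le_trans hc3 (Nat.mul_le_mul_left _ h3)
    have e2 : (s + 13) * M.card = s * M.card + 13 * M.card := by ring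
    have e3 : (2 * s + 25) * M.card = 2 * (s * M.card) + 25 * M.card := by ring
    have e5 : (s + 12 - 1) * M.card = s * M.card + 11 * M.card := by
      have : s + 12 - 1 = s + 11 := by omega
      rw [this]; ring
    rw [e5]
    rw [e2] at g2
    rw [e3] at g3
    generalize s * M.card = p at *
    omega
  rcases le_total F1.card M2.card with h12 | h12
  · rcases le_total M2.card M3.card with h23 | h23
    · exact ⟨_, M3, hC, hM3, key M3 (h12.trans h23) h23 le_rfl⟩
    · exact ⟨_, M2, hC, hM2, key M2 h12 le_rfl h23⟩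
  · rcases le_total F1.card M3.card with h13 | h13
    · exact ⟨_, M3, hC, hM3, key M3 h13 (h12.trans h13) le_rfl⟩
    · exact ⟨_, F1, hC, hM1, key F1 le_rfl h12 h13⟩

/-- **Ryser's inequality for hypergraphs of maximum degree at most three.**
Let `H` be a finite `r`-uniform hypergraph (edge set `H`, every edge has exactly `r` vertices; this
includes every `r`-partite `r`-uniform hypergraph). If every vertex lies in at most two edges and
`r ≥ 4`, or every vertex lies in at most three edges and `r ≥ 12`, then the covering number and the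
matching number are attained and `τ(H) ≤ (r - 1) ν(H)`. -/
theorem result (r : ℕ) (H : Finset (Finset V)) (hunif : ∀ e ∈ H, e.card = r)
    (hcase : (4 ≤ r ∧ ∀ v, degree H v ≤ 2) ∨ (12 ≤ r ∧ ∀ v, degree H v ≤ 3)) :
    (∃ C, IsCover H C ∧ C.card = coverNumber H) ∧
    (∃ M, IsMatching H M ∧ M.card = matchingNumber H) ∧
    coverNumber H ≤ (r - 1) * matchingNumber H := by
  have hw : ∃ C M, IsCover H C ∧ IsMatching H M ∧ C.card ≤ (r - 1) * M.card := by
    rcases hcase with ⟨hr, hd⟩ | ⟨hr, hd⟩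
    · exact witness_two r hr H hunif hd
    · exact witness_three r hr H hunif hd
  obtain ⟨C, M, hC, hM, hle⟩ := hw
  refine ⟨exists_min_cover H C hC, exists_max_matching H, ?_⟩
  calc coverNumber H ≤ C.card := coverNumber_le H C hC
    _ ≤ (r - 1) * M.card := hle
    _ ≤ (r - 1) * matchingNumber H := Nat.mul_le_mul_left _ (le_matchingNumber H M hM)

end Vale.Agent.Results.P045.BoundedDegree
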