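import Vale.Agent.Lib.P045.R42Abs
import Vale.Agent.Lib.P045.R42BMain

/-!
# Ryser's conjecture for 4-partite hypergraphs with matching number at most two
-/

namespace Vale.Agent.Results.P045.FourPartiteNuTwo

open Vale.Agent.Lib.P045

theorem result {V : Type*} (part : V → Fin 4) (E : Set (Finset V))
    (hE : ∀ e ∈ E, ∀ i : Fin 4, ∃! v, v ∈ e ∧ part v = i)
    (ν : ℕ) (hν2 : ν ≤ 2)
    (hν : ∀ M : Finset (Finset V), (∀ e ∈ M, e ∈ E) →
      (∀ e ∈ M, ∀ f ∈ M, e ≠ f → Disjoint e f) → M.card ≤ ν) :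
    ∃ C : Finset V, C.card ≤ 3 * ν ∧ ∀ e ∈ E, ∃ v ∈ C, v ∈ e :=
  ryser_four_of_cert cert41B cert42B part E hE ν hν2 hν

end Vale.Agent.Results.P045.FourPartiteNuTwo
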