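import Vale.Agent.Lib.P045.LovData5
import Vale.Agent.Lib.P045.LovData6

/-!
# The stronger assertion of Lovász fails for `r = 5` and `r = 6`

For `r = 5` and `r = 6` there is an `r`-partite `r`-uniform hypergraph (vertices `(i, x)` with
part `i`) in which every matching has at most two edges, while after the deletion of any set `S`
of at most `r - 1` vertices two disjoint edges remain: the matching number is two and no `r - 1`
vertices lower it.
-/

namespace Vale.Agent.Results.P045.LovaszAssertionFails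

open Vale.Agent.Lib.P045.Lov

theorem result :
    (∃ E : Finset (Finset (Fin 5 × Fin 6)),
      (∀ e ∈ E, ∀ i : Fin 5, ∃! v, v ∈ e ∧ v.1 = i) ∧
      (∀ M : Finset (Finset (Fin 5 × Fin 6)), M ⊆ E →
        (∀ e ∈ M, ∀ f ∈ M, e ≠ f → Disjoint e f) → M.card ≤ 2) ∧
      ∀ S : Finset (Fin 5 × Fin 6), S.card ≤ 4 →
        ∃ e ∈ E, ∃ f ∈ E, Disjoint e f ∧ Disjoint e S ∧ Disjoint f S) ∧
    (∃ E : Finset (Finset (Fin 6 × Fin 7)),
      (∀ e ∈ E, ∀ i : Fin 6, ∃! v, v ∈ e ∧ v.1 = i) ∧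
      (∀ M : Finset (Finset (Fin 6 × Fin 7)), M ⊆ E →
        (∀ e ∈ M, ∀ f ∈ M, e ≠ f → Disjoint e f) → M.card ≤ 2) ∧
      ∀ S : Finset (Fin 6 × Fin 7), S.card ≤ 5 →
        ∃ e ∈ E, ∃ f ∈ E, Disjoint e f ∧ Disjoint e S ∧ Disjoint f S) :=
  ⟨lovasz_ce 6 5 codes5 pairs5 pairs5_ok codes5_tri pairs5_rob,
    lovasz_ce 7 6 codes6 pairs6 pairs6_ok codes6_tri pairs6_rob⟩

end Vale.Agent.Results.P045.LovaszAssertionFails
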