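import Vale.Agent.Results.P045.BoundedDegree
import Vale.Agent.Lib.P045.RyserGen
import Vale.Agent.Lib.P045.R42Abs
import Vale.Agent.Lib.P045.R42BMain
import Vale.Agent.Lib.P045.LovData5
import Vale.Agent.Lib.P045.LovData6

/-!
Four partial results on Ryser's conjecture in one statement

(1) Ryser's inequality for 4-partite hypergraphs with matching number at most two;
(2) a cover of size `4 ν - 2` for 4-partite hypergraphs with matching number `ν ≥ 2`;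
(3) Ryser's inequality for uniform hypergraphs of maximum degree two (`r ≥ 4`) or three
(`r ≥ 12`);
(4) the stronger assertion of Lovász fails for `r = 5` and `r = 6`.
-/

namespace Vale.Agent.Results.P045.RyserOmnibus

open Finset Vale.Agent.Lib.P045 Vale.Agent.Lib.P045.Lov

universe u

theorem result :
    (∀ (V : Type u) (part : V → Fin 4) (E : Set (Finset V)),
      (∀ e ∈ E, ∀ i : Fin 4, ∃! v, v ∈ e ∧ part v = i) →
      ∀ ν : ℕ, ν ≤ 2 →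
      (∀ M : Finset (Finset V), (∀ e ∈ M, e ∈ E) →
        (∀ e ∈ M, ∀ f ∈ M, e ≠ f → Disjoint e f) → M.card ≤ ν) →
      ∃ C : Finset V, C.card ≤ 3 * ν ∧ ∀ e ∈ E, ∃ v ∈ C, v ∈ e) ∧
    (∀ (V : Type u) (part : V → Fin 4) (E : Set (Finset V)),
      (∀ e ∈ E, ∀ i : Fin 4, ∃! v, v ∈ e ∧ part v = i) →
      ∀ ν : ℕ, 2 ≤ ν →
      (∀ M : Finset (Finset V), (∀ e ∈ M, e ∈ E) →
        (∀ e ∈ M, ∀ f ∈ M, e ≠ f → Disjoint e f) → M.card ≤ ν) →
      ∃ C : Finset V, C.card ≤ 4 * ν - 2 ∧ ∀ e ∈ E, ∃ v ∈ C, v ∈ e) ∧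
    (∀ (V : Type u) [DecidableEq V] (r : ℕ) (H : Finset (Finset V)),
      (∀ e ∈ H, e.card = r) →
      ((4 ≤ r ∧ ∀ v, degree H v ≤ 2) ∨ (12 ≤ r ∧ ∀ v, degree H v ≤ 3)) →
      (∃ C, IsCover H C ∧ C.card = coverNumber H) ∧
      (∃ M, IsMatching H M ∧ M.card = matchingNumber H) ∧
      coverNumber H ≤ (r - 1) * matchingNumber H) ∧
    ((∃ E : Finset (Finset (Fin 5 × Fin 6)),
      (∀ e ∈ E, ∀ i : Fin 5, ∃! v, v ∈ e ∧ v.1 = i) ∧
      (∀ M : Finset (Finset (Fin 5 × Fin 6)), M ⊆ E →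
        (∀ e ∈ M, ∀ f ∈ M, e ≠ f → Disjoint e f) → M.card ≤ 2) ∧
      ∀ S : Finset (Fin 5 × Fin 6), S.card ≤ 4 →
        ∃ e ∈ E, ∃ f ∈ E, Disjoint e f ∧ Disjoint e S ∧ Disjoint f S) ∧
    (∃ E : Finset (Finset (Fin 6 × Fin 7)),
      (∀ e ∈ E, ∀ i : Fin 6, ∃! v, v ∈ e ∧ v.1 = i) ∧
      (∀ M : Finset (Finset (Fin 6 × Fin 7)), M ⊆ E →
        (∀ e ∈ M, ∀ f ∈ M, e ≠ f → Disjoint e f) → M.card ≤ 2) ∧
      ∀ S : Finset (Fin 6 × Fin 7), S.card ≤ 5 →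
        ∃ e ∈ E, ∃ f ∈ E, Disjoint e f ∧ Disjoint e S ∧ Disjoint f S)) :=
  ⟨fun _ part E hE ν hν2 hν => ryser_four_of_cert cert41B cert42B part E hE ν hν2 hν,
    fun _ part E hE ν hν2 hν => ryser_four_general_of_cert cert41B cert42B part E hE ν hν2 hν,
    fun _ _ r H hunif hcase => BoundedDegree.result r H hunif hcase,
    ⟨lovasz_ce 6 5 codes5 pairs5 pairs5_ok codes5_tri pairs5_rob,
      lovasz_ce 7 6 codes6 pairs6 pairs6_ok codes6_tri pairs6_rob⟩⟩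

end Vale.Agent.Results.P045.RyserOmnibus
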